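import Vale.Agent.Lib.P108.Torus

/-!
Uniform lower bound for the topological entropy of the standard map for `|k| ≥ 1/2`,
in particular at `k = 2/π`. Orbits are obtained between sub- and super-solutions of the
second order recurrence by minimising the discrete action over a box.
-/

namespace Vale.Agent.Results.P108.A_topEntropy

theorem result (k : ℝ) (hk : 1 / 2 ≤ |k|) :
    ∃ T : UnitAddCircle × UnitAddCircle → UnitAddCircle × UnitAddCircle,
      (∀ x y : ℝ, T ((x : UnitAddCircle), (y : UnitAddCircle)) =
        (((x + y + k * Real.sin (2 * Real.pi * x) : ℝ) : UnitAddCircle),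
         ((y + k * Real.sin (2 * Real.pi * x) : ℝ) : UnitAddCircle))) ∧
      ((Real.log 2 / 3 : ℝ) : EReal) ≤ Dynamics.coverEntropy T Set.univ := by
  obtain ⟨T, hT⟩ := Vale.Agent.Lib.P108.exists_stdMap k
  exact ⟨T, hT, Vale.Agent.Lib.P108.entropy_lower k hk T hT⟩

end Vale.Agent.Results.P108.A_topEntropy
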